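import Vale.Agent.Lib.P340.Defs

namespace Vale.Agent.Lib.P340

variable {S S' : Type}

/-- Renaming of sorts. -/
def mapS (ρ : S → S') : Tm S → Tm S'
  | .var n => .var n
  | .sort s => .sort (ρ s)
  | .app M N => .app (mapS ρ M) (mapS ρ N)
  | .lam A M => .lam (mapS ρ A) (mapS ρ M)
  | .pi A B => .pi (mapS ρ A) (mapS ρ B)

lemma mapS_lift (ρ : S → S') (M : Tm S) : ∀ k, mapS ρ (lift k M) = lift k (mapS ρ M) := by
  induction M with
  | var n => intro k; simp only [lift, mapS]; split_ifs <;> rfl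
  | sort s => intro k; rfl
  | app M N ihM ihN => intro k; simp only [lift, mapS, ihM, ihN]
  | lam A M ihA ihM => intro k; simp only [lift, mapS, ihA, ihM]
  | pi A B ihA ihB => intro k; simp only [lift, mapS, ihA, ihB]

lemma mapS_subst (ρ : S → S') (M : Tm S) :
    ∀ k N, mapS ρ (subst k N M) = subst k (mapS ρ N) (mapS ρ M) := by
  induction M with
  | var n => intro k N; simp only [subst, mapS]; split_ifs <;> rfl
  | sort s => intro k N; rfl
  | app M P ihM ihP => intro k N; simp only [subst, mapS, ihM, ihP]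
  | lam A M ihA ihM => intro k N; simp only [subst, mapS, ihA, ihM, mapS_lift]
  | pi A B ihA ihB => intro k N; simp only [subst, mapS, ihA, ihB, mapS_lift]

lemma Beta.mapS (ρ : S → S') {M N : Tm S} (h : Beta M N) :
    Beta (Vale.Agent.Lib.P340.mapS ρ M) (Vale.Agent.Lib.P340.mapS ρ N) := by
  induction h with
  | beta A M N =>
    rw [mapS_subst]
    exact Beta.beta _ _ _
  | appL N _ ih => exact Beta.appL _ ih
  | appR M _ ih => exact Beta.appR _ ih
  | lamL M _ ih => exact Beta.lamL _ ih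
  | lamR A _ ih => exact Beta.lamR _ ih
  | piL B _ ih => exact Beta.piL _ ih
  | piR A _ ih => exact Beta.piR _ ih

lemma BetaEq.mapS (ρ : S → S') {M N : Tm S} (h : BetaEq M N) :
    BetaEq (Vale.Agent.Lib.P340.mapS ρ M) (Vale.Agent.Lib.P340.mapS ρ N) := by
  induction h with
  | rel _ _ h => exact Relation.EqvGen.rel _ _ (h.mapS ρ)
  | refl _ => exact Relation.EqvGen.refl _
  | symm _ _ _ ih => exact Relation.EqvGen.symm _ _ ih
  | trans _ _ _ _ _ ih1 ih2 => exact Relation.EqvGen.trans _ _ _ ih1 ih2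

lemma beta_mapS_inv (ρ : S → S') (M : Tm S) :
    ∀ N' : Tm S', Beta (mapS ρ M) N' → ∃ N, N' = mapS ρ N ∧ Beta M N := by
  induction M with
  | var n => intro N' h; cases h
  | sort s => intro N' h; cases h
  | app M P ihM ihP =>
    intro N' h
    cases M with
    | lam A Q =>
      simp only [mapS] at h
      cases h with
      | beta _ _ _ => exact ⟨subst 0 P Q, (mapS_subst ρ Q 0 P).symm, Beta.beta _ _ _⟩
      | appL _ h1 =>
        obtain ⟨K, rfl, hK⟩ := ihM _ h1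
        exact ⟨.app K P, rfl, Beta.appL _ hK⟩
      | appR _ h1 =>
        obtain ⟨K, rfl, hK⟩ := ihP _ h1
        exact ⟨.app (.lam A Q) K, rfl, Beta.appR _ hK⟩
    | var n =>
      simp only [mapS] at h
      cases h with
      | appL _ h1 => cases h1
      | appR _ h1 =>
        obtain ⟨K, rfl, hK⟩ := ihP _ h1
        exact ⟨.app (.var n) K, rfl, Beta.appR _ hK⟩
    | sort s =>
      simp only [mapS] at h
      cases h with
      | appL _ h1 => cases h1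
      | appR _ h1 =>
        obtain ⟨K, rfl, hK⟩ := ihP _ h1
        exact ⟨.app (.sort s) K, rfl, Beta.appR _ hK⟩
    | app M1 M2 =>
      simp only [mapS] at h
      cases h with
      | appL _ h1 =>
        obtain ⟨K, rfl, hK⟩ := ihM _ h1
        exact ⟨.app K P, rfl, Beta.appL _ hK⟩
      | appR _ h1 =>
        obtain ⟨K, rfl, hK⟩ := ihP _ h1
        exact ⟨.app (.app M1 M2) K, rfl, Beta.appR _ hK⟩
    | pi M1 M2 =>
      simp only [mapS] at h
      cases h with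
      | appL _ h1 =>
        obtain ⟨K, rfl, hK⟩ := ihM _ h1
        exact ⟨.app K P, rfl, Beta.appL _ hK⟩
      | appR _ h1 =>
        obtain ⟨K, rfl, hK⟩ := ihP _ h1
        exact ⟨.app (.pi M1 M2) K, rfl, Beta.appR _ hK⟩
  | lam A M ihA ihM =>
    intro N' h
    simp only [mapS] at h
    cases h with
    | lamL _ h1 =>
      obtain ⟨K, rfl, hK⟩ := ihA _ h1
      exact ⟨.lam K M, rfl, Beta.lamL _ hK⟩
    | lamR _ h1 =>
      obtain ⟨K, rfl, hK⟩ := ihM _ h1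
      exact ⟨.lam A K, rfl, Beta.lamR _ hK⟩
  | pi A B ihA ihB =>
    intro N' h
    simp only [mapS] at h
    cases h with
    | piL _ h1 =>
      obtain ⟨K, rfl, hK⟩ := ihA _ h1
      exact ⟨.pi K B, rfl, Beta.piL _ hK⟩
    | piR _ h1 =>
      obtain ⟨K, rfl, hK⟩ := ihB _ h1
      exact ⟨.pi A K, rfl, Beta.piR _ hK⟩

lemma betaStar_mapS_inv (ρ : S → S') (M : Tm S) {N' : Tm S'}
    (h : Relation.ReflTransGen Beta (mapS ρ M) N') :
    ∃ N, N' = mapS ρ N ∧ Relation.ReflTransGen Beta M N := by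
  induction h with
  | refl => exact ⟨M, rfl, Relation.ReflTransGen.refl⟩
  | tail _ h2 ih =>
    obtain ⟨K, rfl, hK⟩ := ih
    obtain ⟨L, rfl, hL⟩ := beta_mapS_inv ρ K _ h2
    exact ⟨L, rfl, hK.tail hL⟩

/-- Morphisms of specifications preserve typing. -/
lemma Typ.mapS {Ax : S → S → Prop} {Ru : S → S → S → Prop} {Ax' : S' → S' → Prop}
    {Ru' : S' → S' → S' → Prop} (ρ : S → S') (hA : ∀ a b, Ax a b → Ax' (ρ a) (ρ b))
    (hR : ∀ a b c, Ru a b c → Ru' (ρ a) (ρ b) (ρ c)) {Γ : List (Tm S)} {M B : Tm S}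
    (h : Typ Ax Ru Γ M B) :
    Typ Ax' Ru' (Γ.map (Vale.Agent.Lib.P340.mapS ρ)) (Vale.Agent.Lib.P340.mapS ρ M)
      (Vale.Agent.Lib.P340.mapS ρ B) := by
  induction h with
  | ax h => exact Typ.ax (hA _ _ h)
  | var _ ih =>
    rw [mapS_lift]
    exact Typ.var ih
  | weak _ _ ih1 ih2 =>
    rw [mapS_lift, mapS_lift]
    exact Typ.weak ih1 ih2
  | prod _ _ hr ih1 ih2 => exact Typ.prod ih1 ih2 (hR _ _ _ hr)
  | abs _ _ ih1 ih2 => exact Typ.abs ih1 ih2
  | app _ _ ih1 ih2 =>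
    rw [mapS_subst]
    exact Typ.app ih1 ih2
  | conv _ _ hc ih1 ih2 => exact Typ.conv ih1 ih2 (hc.mapS ρ)

lemma Typ.mono {Ax Ax' : S → S → Prop} {Ru Ru' : S → S → S → Prop}
    (hA : ∀ a b, Ax a b → Ax' a b) (hR : ∀ a b c, Ru a b c → Ru' a b c)
    {Γ : List (Tm S)} {M B : Tm S} (h : Typ Ax Ru Γ M B) : Typ Ax' Ru' Γ M B := by
  induction h with
  | ax h => exact Typ.ax (hA _ _ h)
  | var _ ih => exact Typ.var ih
  | weak _ _ ih1 ih2 => exact Typ.weak ih1 ih2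
  | prod _ _ hr ih1 ih2 => exact Typ.prod ih1 ih2 (hR _ _ _ hr)
  | abs _ _ ih1 ih2 => exact Typ.abs ih1 ih2
  | app _ _ ih1 ih2 => exact Typ.app ih1 ih2
  | conv _ _ hc ih1 ih2 => exact Typ.conv ih1 ih2 hc

/-- A derivation uses finitely many sorts in its axioms and rules. -/
lemma Typ.finite_support {Ax : S → S → Prop} {Ru : S → S → S → Prop}
    {Γ : List (Tm S)} {M B : Tm S} (h : Typ Ax Ru Γ M B) :
    ∃ T : Set S, T.Finite ∧ T.Nonempty ∧
      Typ (fun a b => Ax a b ∧ a ∈ T ∧ b ∈ T) (fun a b c => Ru a b c ∧ a ∈ T ∧ b ∈ T ∧ c ∈ T)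
        Γ M B := by
  have mono : ∀ {T T' : Set S} {Γ : List (Tm S)} {M B : Tm S}, T ⊆ T' →
      Typ (fun a b => Ax a b ∧ a ∈ T ∧ b ∈ T) (fun a b c => Ru a b c ∧ a ∈ T ∧ b ∈ T ∧ c ∈ T)
        Γ M B →
      Typ (fun a b => Ax a b ∧ a ∈ T' ∧ b ∈ T') (fun a b c => Ru a b c ∧ a ∈ T' ∧ b ∈ T' ∧ c ∈ T')
        Γ M B := by
    intro T T' Γ M B hT h
    exact h.mono (fun a b ⟨h1, h2, h3⟩ => ⟨h1, hT h2, hT h3⟩)
      (fun a b c ⟨h1, h2, h3, h4⟩ => ⟨h1, hT h2, hT h3, hT h4⟩)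
  induction h with
  | @ax s₁ s₂ h =>
    refine ⟨{s₁, s₂}, by simp, ⟨s₁, by simp⟩, Typ.ax ⟨h, by simp, by simp⟩⟩
  | var _ ih =>
    obtain ⟨T, hf, hn, hT⟩ := ih
    exact ⟨T, hf, hn, Typ.var hT⟩
  | weak _ _ ih1 ih2 =>
    obtain ⟨T1, hf1, hn1, hT1⟩ := ih1
    obtain ⟨T2, hf2, _, hT2⟩ := ih2
    exact ⟨T1 ∪ T2, hf1.union hf2, hn1.mono Set.subset_union_left,
      Typ.weak (mono Set.subset_union_left hT1) (mono Set.subset_union_right hT2)⟩
  | @prod Γ A B s₁ s₂ s₃ _ _ hr ih1 ih2 =>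
    obtain ⟨T1, hf1, hn1, hT1⟩ := ih1
    obtain ⟨T2, hf2, _, hT2⟩ := ih2
    refine ⟨(T1 ∪ T2) ∪ {s₁, s₂, s₃}, (hf1.union hf2).union (by simp),
      hn1.mono (Set.subset_union_left.trans Set.subset_union_left),
      Typ.prod (mono (Set.subset_union_left.trans Set.subset_union_left) hT1)
        (mono (Set.subset_union_right.trans Set.subset_union_left) hT2)
        ⟨hr, by simp, by simp, by simp⟩⟩
  | abs _ _ ih1 ih2 =>
    obtain ⟨T1, hf1, hn1, hT1⟩ := ih1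
    obtain ⟨T2, hf2, _, hT2⟩ := ih2
    exact ⟨T1 ∪ T2, hf1.union hf2, hn1.mono Set.subset_union_left,
      Typ.abs (mono Set.subset_union_left hT1) (mono Set.subset_union_right hT2)⟩
  | app _ _ ih1 ih2 =>
    obtain ⟨T1, hf1, hn1, hT1⟩ := ih1
    obtain ⟨T2, hf2, _, hT2⟩ := ih2
    exact ⟨T1 ∪ T2, hf1.union hf2, hn1.mono Set.subset_union_left,
      Typ.app (mono Set.subset_union_left hT1) (mono Set.subset_union_right hT2)⟩
  | conv _ _ hc ih1 ih2 =>
    obtain ⟨T1, hf1, hn1, hT1⟩ := ih1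
    obtain ⟨T2, hf2, _, hT2⟩ := ih2
    exact ⟨T1 ∪ T2, hf1.union hf2, hn1.mono Set.subset_union_left,
      Typ.conv (mono Set.subset_union_left hT1) (mono Set.subset_union_right hT2) hc⟩

/-- The restriction of a weakly normalizing specification to a subset of sorts is weakly
normalizing. -/
lemma wn_restrict {Ax : S → S → Prop} {Ru : S → S → S → Prop} (T : Set S)
    (h : WeaklyNormalizing Ax Ru) :
    WeaklyNormalizing (S := T) (fun a b => Ax a.1 b.1) (fun a b c => Ru a.1 b.1 c.1) := by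
  intro M' hM'
  have hleg : Legal Ax Ru (mapS (Subtype.val : T → S) M') := by
    obtain ⟨Γ, B, h1 | h1⟩ := hM'
    · exact ⟨_, _, Or.inl (h1.mapS Subtype.val (fun _ _ h => h) (fun _ _ _ h => h))⟩
    · exact ⟨_, _, Or.inr (h1.mapS Subtype.val (fun _ _ h => h) (fun _ _ _ h => h))⟩
  obtain ⟨N, hN, hnorm⟩ := h _ hleg
  obtain ⟨N', rfl, hN'⟩ := betaStar_mapS_inv _ _ hN
  exact ⟨N', hN', fun K hK => hnorm _ (hK.mapS _)⟩

/-- The conjecture reduces to specifications with finitely many sorts. -/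
theorem reduce_to_finite
    (hfin : ∀ (S : Type) [Finite S] (Ax : S → S → Prop) (Ru : S → S → S → Prop),
      WeaklyNormalizing Ax Ru → StronglyNormalizing Ax Ru)
    (S : Type) (Ax : S → S → Prop) (Ru : S → S → S → Prop)
    (h : WeaklyNormalizing Ax Ru) : StronglyNormalizing Ax Ru := by
  classical
  intro M hM ⟨f, hf0, hf⟩
  have key : ∃ T : Set S, T.Finite ∧ T.Nonempty ∧
      Legal (fun a b => Ax a b ∧ a ∈ T ∧ b ∈ T)
        (fun a b c => Ru a b c ∧ a ∈ T ∧ b ∈ T ∧ c ∈ T) M := by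
    obtain ⟨Γ, B, h1 | h1⟩ := hM
    · obtain ⟨T, hf, hn, hT⟩ := h1.finite_support
      exact ⟨T, hf, hn, Γ, B, Or.inl hT⟩
    · obtain ⟨T, hf, hn, hT⟩ := h1.finite_support
      exact ⟨T, hf, hn, Γ, B, Or.inr hT⟩
  obtain ⟨T, hTf, ⟨s0, hs0⟩, hleg⟩ := key
  let ρ : S → T := fun s => if hs : s ∈ T then ⟨s, hs⟩ else ⟨s0, hs0⟩
  have hρ : ∀ s (hs : s ∈ T), ρ s = ⟨s, hs⟩ := fun s hs => by simp [ρ, hs]
  have hA : ∀ a b, (Ax a b ∧ a ∈ T ∧ b ∈ T) → Ax (ρ a).1 (ρ b).1 := by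
    rintro a b ⟨h1, h2, h3⟩
    rw [hρ a h2, hρ b h3]; exact h1
  have hR : ∀ a b c, (Ru a b c ∧ a ∈ T ∧ b ∈ T ∧ c ∈ T) → Ru (ρ a).1 (ρ b).1 (ρ c).1 := by
    rintro a b c ⟨h1, h2, h3, h4⟩
    rw [hρ a h2, hρ b h3, hρ c h4]; exact h1
  have hleg' : Legal (S := T) (fun a b => Ax a.1 b.1) (fun a b c => Ru a.1 b.1 c.1)
      (mapS ρ M) := by
    obtain ⟨Γ, B, h1 | h1⟩ := hleg
    · exact ⟨_, _, Or.inl (h1.mapS ρ hA hR)⟩
    · exact ⟨_, _, Or.inr (h1.mapS ρ hA hR)⟩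
  have : Finite T := hTf.to_subtype
  have hsn := hfin T _ _ (wn_restrict T h)
  exact hsn _ hleg' ⟨fun n => mapS ρ (f n), by simp [hf0], fun n => (hf n).mapS ρ⟩

end Vale.Agent.Lib.P340
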