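import Mathlib

namespace Vale.Agent.Lib.P340

/-- Expressions of a pure type system over a set `S` of sorts, with de Bruijn indices:
`lam A M` is `λ x : A. M` and `pi A B` is `Π x : A. B` (the body lives under one more binder). -/
inductive Tm (S : Type) : Type
  | var : ℕ → Tm S
  | sort : S → Tm S
  | app : Tm S → Tm S → Tm S
  | lam : Tm S → Tm S → Tm S
  | pi : Tm S → Tm S → Tm S

variable {S : Type}

/-- Shift by one every variable of index at least `k`. -/
def lift : ℕ → Tm S → Tm S
  | k, .var n => if n < k then .var n else .var (n + 1)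
  | _, .sort s => .sort s
  | k, .app M N => .app (lift k M) (lift k N)
  | k, .lam A M => .lam (lift k A) (lift (k + 1) M)
  | k, .pi A B => .pi (lift k A) (lift (k + 1) B)

/-- `subst k N M` is `M[k := N]`: variable `k` is replaced by `N`, variables above `k` go down. -/
def subst : ℕ → Tm S → Tm S → Tm S
  | k, N, .var n => if n < k then .var n else if n = k then N else .var (n - 1)
  | _, _, .sort s => .sort s
  | k, N, .app M P => .app (subst k N M) (subst k N P)
  | k, N, .lam A M => .lam (subst k N A) (subst (k + 1) (lift 0 N) M)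
  | k, N, .pi A B => .pi (subst k N A) (subst (k + 1) (lift 0 N) B)

/-- One-step beta reduction: compatible closure of `(λ x : A. M) N → M[x := N]`. -/
inductive Beta : Tm S → Tm S → Prop
  | beta (A M N : Tm S) : Beta (.app (.lam A M) N) (subst 0 N M)
  | appL {M M' : Tm S} (N : Tm S) : Beta M M' → Beta (.app M N) (.app M' N)
  | appR (M : Tm S) {N N' : Tm S} : Beta N N' → Beta (.app M N) (.app M N')
  | lamL {A A' : Tm S} (M : Tm S) : Beta A A' → Beta (.lam A M) (.lam A' M)
  | lamR (A : Tm S) {M M' : Tm S} : Beta M M' → Beta (.lam A M) (.lam A M')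
  | piL {A A' : Tm S} (B : Tm S) : Beta A A' → Beta (.pi A B) (.pi A' B)
  | piR (A : Tm S) {B B' : Tm S} : Beta B B' → Beta (.pi A B) (.pi A B')

/-- Beta conversion: the equivalence relation generated by `Beta`. -/
def BetaEq (M N : Tm S) : Prop := Relation.EqvGen Beta M N

/-- Typing of the pure type system with axioms `Ax` and rules `Ru`. Contexts are lists, the most
recently declared variable (index `0`) first. -/
inductive Typ (Ax : S → S → Prop) (Ru : S → S → S → Prop) : List (Tm S) → Tm S → Tm S → Prop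
  | ax {s₁ s₂ : S} : Ax s₁ s₂ → Typ Ax Ru [] (.sort s₁) (.sort s₂)
  | var {Γ : List (Tm S)} {A : Tm S} {s : S} :
      Typ Ax Ru Γ A (.sort s) → Typ Ax Ru (A :: Γ) (.var 0) (lift 0 A)
  | weak {Γ : List (Tm S)} {M B A : Tm S} {s : S} :
      Typ Ax Ru Γ M B → Typ Ax Ru Γ A (.sort s) → Typ Ax Ru (A :: Γ) (lift 0 M) (lift 0 B)
  | prod {Γ : List (Tm S)} {A B : Tm S} {s₁ s₂ s₃ : S} :
      Typ Ax Ru Γ A (.sort s₁) → Typ Ax Ru (A :: Γ) B (.sort s₂) → Ru s₁ s₂ s₃ →
      Typ Ax Ru Γ (.pi A B) (.sort s₃)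
  | abs {Γ : List (Tm S)} {A B M : Tm S} {s : S} :
      Typ Ax Ru (A :: Γ) M B → Typ Ax Ru Γ (.pi A B) (.sort s) →
      Typ Ax Ru Γ (.lam A M) (.pi A B)
  | app {Γ : List (Tm S)} {A B M N : Tm S} :
      Typ Ax Ru Γ M (.pi A B) → Typ Ax Ru Γ N A → Typ Ax Ru Γ (.app M N) (subst 0 N B)
  | conv {Γ : List (Tm S)} {M A B : Tm S} {s : S} :
      Typ Ax Ru Γ M A → Typ Ax Ru Γ B (.sort s) → BetaEq A B → Typ Ax Ru Γ M B

/-- An expression is legal if it is the subject or the type of a derivable judgment. -/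
def Legal (Ax : S → S → Prop) (Ru : S → S → S → Prop) (M : Tm S) : Prop :=
  ∃ Γ B, Typ Ax Ru Γ M B ∨ Typ Ax Ru Γ B M

/-- Beta normal form. -/
def Normal (M : Tm S) : Prop := ∀ N, ¬ Beta M N

/-- Every legal expression reduces to a normal form. -/
def WeaklyNormalizing (Ax : S → S → Prop) (Ru : S → S → S → Prop) : Prop :=
  ∀ M, Legal Ax Ru M → ∃ N, Relation.ReflTransGen Beta M N ∧ Normal N

/-- No legal expression starts an infinite reduction sequence. -/
def StronglyNormalizing (Ax : S → S → Prop) (Ru : S → S → S → Prop) : Prop :=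
  ∀ M, Legal Ax Ru M → ¬ ∃ f : ℕ → Tm S, f 0 = M ∧ ∀ n, Beta (f n) (f (n + 1))

end Vale.Agent.Lib.P340
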